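import Vale.Agent.P032.H448.HD

/-!
# P032: windows of length at most 180 degrees

`W3 U T z L R` : the structure `WinData` with `R i ≤ L i + 3` instead of `R i < L i + 3`, together
with the sides: a colour outside (inside) near the circle at the direction `t` has its window in the
closed half circle behind (in front of) `t`.  The statements on windows which do not need the strict
inequality are repeated for `W3`.
-/

open Set Filter Topology Metric

noncomputable section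

namespace Vale.Agent.P032.H259W

open Vale.Agent.P032.Six Vale.Agent.P032.Sweep Vale.Agent.P032.S5.H767 Vale.Agent.P032.S5.H122
  Vale.Agent.P032.H429 Vale.Agent.P032.H187
open Vale.Agent.P032.H266 (HD)
open Vale.Agent.P032.H158 (OutN InnN)

/-- windows of a centre, closed half circles allowed -/
structure W3 (U : Fin 6 → Set ℂ) (T : ℂ → Set (Fin 6)) (z : ℂ) (L R : Fin 6 → ℝ) : Prop where
  le : ∀ i, L i ≤ R i
  lt3 : ∀ i, R i ≤ L i + 3
  cover : ∀ s : ℝ, ∃ i, ∃ n : ℤ, L i + 6 * n ≤ s ∧ s ≤ R i + 6 * n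
  side : ∀ s ∈ Lc T z, ∀ x ∈ T (pt z s),
    (∃ n : ℤ, s - 3 / 2 < L x + 6 * n ∧ R x + 6 * n < s + 3 / 2) ∨
      ∃ n : ℤ, s + 3 / 2 < L x + 6 * n ∧ R x + 6 * n < s + 9 / 2
  front : ∀ s ∈ Lc T z, ∃ x ∈ T (pt z s),
    ∃ n : ℤ, s - 3 / 2 < L x + 6 * n ∧ R x + 6 * n < s + 3 / 2
  back : ∀ s ∈ Lc T z, ∃ x ∈ T (pt z s),
    ∃ n : ℤ, s + 3 / 2 < L x + 6 * n ∧ R x + 6 * n < s + 9 / 2
  hon : ∀ i, L i ∈ HD U z i ∧ R i ∈ HD U z i
  outH : ∀ i t, OutN U z (pt z t) i → ∃ n : ℤ, t + 3 / 2 ≤ L i + 6 * n ∧ R i + 6 * n ≤ t + 9 / 2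
  innH : ∀ i t, InnN U z (pt z t) i → ∃ n : ℤ, t - 3 / 2 ≤ L i + 6 * n ∧ R i + 6 * n ≤ t + 3 / 2

namespace W3

open WinData

variable {U : Fin 6 → Set ℂ} {T : ℂ → Set (Fin 6)} {z : ℂ} {L R : Fin 6 → ℝ}

theorem sc_le (_ : W3 U T z L R) {t x y : ℝ} (hxy : x ≤ y) : sc t x ≤ sc t y :=
  Int.floor_le_floor (by linarith)

/-- a window has at most four sectors -/
theorem len (w : W3 U T z L R) (t : ℝ) (i : Fin 6) : (wn L R t i).2 ≤ 3 := by
  have h1 : sc t (R i) < sc t (L i) + 4 := by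
    rw [sc_lt]
    have h3 := (sc_lt (t := t) (x := L i) (j := sc t (L i) + 1)).1 (by omega)
    have h4 := w.lt3 i
    push_cast at h3 ⊢
    linarith
  have h2 := w.sc_le (t := t) (w.le i)
  show (sc t (R i) - sc t (L i)).toNat ≤ 3
  omega

theorem inn_iff (w : W3 U T z L R) {t : ℝ} {i : Fin 6} {j : ℤ} :
    inn (wn L R t i) (j : ZMod 6) ↔ ∃ n : ℤ, j - 3 ≤ sc t (L i) + 6 * n ∧
      sc t (R i) + 6 * n < j := by
  have hle := w.sc_le (t := t) (w.le i)
  have e0 : ∀ n : ℤ, ((sc t (L i) : ZMod 6) - (j : ZMod 6) + 3) =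
      (((sc t (L i) + 6 * n - (j - 3) : ℤ)) : ZMod 6) := by
    intro n
    push_cast
    have : (6 : ZMod 6) = 0 := by decide
    rw [this]
    ring
  constructor
  · intro h
    unfold inn at h
    simp only [wn] at h
    obtain ⟨m, hm0, hm6⟩ : ∃ m : ℤ, 0 ≤ sc t (L i) - (j - 3) + 6 * m ∧
        sc t (L i) - (j - 3) + 6 * m < 6 := by
      refine ⟨-((sc t (L i) - (j - 3)) / 6), ?_, ?_⟩
      · have := Int.emod_nonneg (sc t (L i) - (j - 3)) (show (6 : ℤ) ≠ 0 by norm_num)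
        have h2 := Int.emod_add_mul_ediv (sc t (L i) - (j - 3)) 6
        linarith
      · have := Int.emod_lt_of_pos (sc t (L i) - (j - 3)) (show (0 : ℤ) < 6 by norm_num)
        have h2 := Int.emod_add_mul_ediv (sc t (L i) - (j - 3)) 6
        linarith
    refine ⟨m, by linarith, ?_⟩
    rw [e0 m, zval_of_int _ (by linarith) (by linarith)] at h
    omega
  · rintro ⟨n, h1, h2⟩
    unfold inn
    simp only [wn]
    rw [e0 n, zval_of_int _ (by linarith) (by linarith)]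
    omega

theorem out_iff (w : W3 U T z L R) {t : ℝ} {i : Fin 6} {j : ℤ} :
    out (wn L R t i) (j : ZMod 6) ↔ ∃ n : ℤ, j ≤ sc t (L i) + 6 * n ∧
      sc t (R i) + 6 * n < j + 3 := by
  unfold out
  have := w.inn_iff (t := t) (i := i) (j := j + 3)
  push_cast at this
  rw [this]
  constructor
  · rintro ⟨n, h1, h2⟩; exact ⟨n, by omega, by omega⟩
  · rintro ⟨n, h1, h2⟩; exact ⟨n, by omega, by omega⟩

theorem inn_of_front (w : W3 U T z L R) {t : ℝ} {j x : Fin 6}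
    (hx : ∃ n : ℤ, t + (j.val : ℝ) - 3 / 2 < L x + 6 * n ∧
      R x + 6 * n < t + (j.val : ℝ) + 3 / 2) : inn (wn L R t x) (j.val : ZMod 6) := by
  obtain ⟨n, h3, h4⟩ := hx
  have := (w.inn_iff (t := t) (i := x) (j := (j.val : ℤ))).2 ⟨n, ?_, ?_⟩
  · simpa using this
  · rw [← sc_int, le_sc]; push_cast; linarith
  · rw [← sc_int, sc_lt]; push_cast; linarith

theorem out_of_back (w : W3 U T z L R) {t : ℝ} {j x : Fin 6}
    (hx : ∃ n : ℤ, t + (j.val : ℝ) + 3 / 2 < L x + 6 * n ∧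
      R x + 6 * n < t + (j.val : ℝ) + 9 / 2) : out (wn L R t x) (j.val : ZMod 6) := by
  obtain ⟨n, h3, h4⟩ := hx
  have := (w.out_iff (t := t) (i := x) (j := (j.val : ℤ))).2 ⟨n, ?_, ?_⟩
  · simpa using this
  · rw [← sc_int, le_sc]; push_cast; linarith
  · rw [← sc_int, sc_lt]; push_cast; linarith

/-- the sides at a generic time -/
theorem side_spec (w : W3 U T z L R) {t : ℝ} {j : Fin 6} (ht : t + (j.val : ℝ) ∈ Lc T z) :
    ∀ x ∈ T (pt z (t + (j.val : ℝ))), inn (wn L R t x) (j.val : ZMod 6) ∨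
      out (wn L R t x) (j.val : ZMod 6) := fun x hx =>
  (w.side _ ht x hx).imp w.inn_of_front w.out_of_back

/-- the letters at a generic time -/
theorem letter' (w : W3 U T z L R) {t : ℝ} {j : Fin 6} (ht : t + (j.val : ℝ) ∈ Lc T z) :
    ∃ p : Fin 6 × Fin 6, (p.1 ∈ T (pt z (t + (j.val : ℝ))) ∧ p.2 ∈ T (pt z (t + (j.val : ℝ)))) ∧
      inn (wn L R t p.1) (j.val : ZMod 6) ∧ out (wn L R t p.2) (j.val : ZMod 6) := by
  obtain ⟨a, ha, ha'⟩ := w.front _ ht
  obtain ⟨b, hb, hb'⟩ := w.back _ ht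
  exact ⟨(a, b), ⟨ha, hb⟩, w.inn_of_front ha', w.out_of_back hb'⟩

/-- the column at a generic time -/
theorem col_spec (w : W3 U T z L R) {t : ℝ} (ht : t ∈ L0 T z) (j : Fin 6) :
    (col T z L R t j).1 ∈ T (pt z (t + (j.val : ℝ))) ∧
      (col T z L R t j).2 ∈ T (pt z (t + (j.val : ℝ))) ∧
      (col T z L R t j).1 ≠ (col T z L R t j).2 ∧
      inn (wn L R t (col T z L R t j).1) (j.val : ZMod 6) ∧
      out (wn L R t (col T z L R t j).2) (j.val : ZMod 6) := by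
  obtain ⟨⟨h1, h2⟩, h3, h4⟩ := lett_spec (w.letter' (ht j))
  refine ⟨h1, h2, fun h5 => ?_, h3, h4⟩
  have h6 : inn (wn L R t (col T z L R t j).1) (j.val : ZMod 6) := h3
  have h7 : out (wn L R t (col T z L R t j).2) (j.val : ZMod 6) := h4
  rw [← h5] at h7
  exact not_inn_out h6 h7

end W3

section

open Vale.Agent.P032.H158

variable {U : Fin 6 → Set ℂ} {T : ℂ → Set (Fin 6)} {z : ℂ} {L R : Fin 6 → ℝ}

/-- a letter of a generic state is carried by the circle -/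
theorem carried (h : Irr U T) (w : W3 U T z L R) {v : ℝ} (hv : v ∈ WinData.G T z L R)
    (j : Fin 6) : pt z (v + (j.val : ℝ)) ∈ Cr U z (cset ((WinData.st T z L R v).1 j)) := by
  obtain ⟨h1, h2, -, -, -⟩ := w.col_spec hv.1 j
  refine Cr_of_T h (dist_pt158 z _) ((Lc_circle (hv.1 j)).mono fun q hq => ?_)
  have e : cset ((WinData.st T z L R v).1 j) ⊆ T (pt z (v + (j.val : ℝ))) := by
    rintro x (rfl | hx)
    · exact h1
    · rw [mem_singleton_iff] at hx
      rw [hx]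
      exact h2
  rw [hq]
  exact e

/-- the next slot of a limit state is carried near its time -/
theorem LS_next (h : Irr U T) (w : W3 U T z L R) {u : ℝ} {s : St} (hs : s ∈ LS T z L R u)
    (j : Fin 6) : (∃ᶠ v in 𝓝[<] (u + (j.val : ℝ) + 1), pt z v ∈ Cr U z (cset (s.1 (j + 1)))) ∧
      ∃ᶠ v in 𝓝[<] (u + (j.val : ℝ) - 1), pt z v ∈ Cr U z (cset (s.1 (j - 1))) := by
  have hs' : ∃ᶠ v in 𝓝[<] u, v ∈ WinData.G T z L R ∧ WinData.st T z L R v = s := hs
  constructor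
  · have e : u + (j.val : ℝ) + 1 = u + ((j.val : ℝ) + 1) := by ring
    rw [e]
    refine freq_add (l := fun u => 𝓝[<] u) (Or.inl rfl) (hs'.mono fun v hv => ?_)
    have h1 := carried h w hv.1 (j + 1)
    rw [(pt_slot z v j).1, hv.2] at h1
    rwa [← add_assoc]
  · have e : u + (j.val : ℝ) - 1 = u + ((j.val : ℝ) - 1) := by ring
    rw [e]
    refine freq_add (l := fun u => 𝓝[<] u) (Or.inl rfl) (hs'.mono fun v hv => ?_)
    have h1 := carried h w hv.1 (j - 1)
    rw [(pt_slot z v j).2, hv.2] at h1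
    rwa [← add_sub_assoc]

theorem RS_next (h : Irr U T) (w : W3 U T z L R) {u : ℝ} {s : St} (hs : s ∈ RS T z L R u)
    (j : Fin 6) : (∃ᶠ v in 𝓝[>] (u + (j.val : ℝ) + 1), pt z v ∈ Cr U z (cset (s.1 (j + 1)))) ∧
      ∃ᶠ v in 𝓝[>] (u + (j.val : ℝ) - 1), pt z v ∈ Cr U z (cset (s.1 (j - 1))) := by
  have hs' : ∃ᶠ v in 𝓝[>] u, v ∈ WinData.G T z L R ∧ WinData.st T z L R v = s := hs
  constructor
  · have e : u + (j.val : ℝ) + 1 = u + ((j.val : ℝ) + 1) := by ring
    rw [e]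
    refine freq_add (l := fun u => 𝓝[>] u) (Or.inr rfl) (hs'.mono fun v hv => ?_)
    have h1 := carried h w hv.1 (j + 1)
    rw [(pt_slot z v j).1, hv.2] at h1
    rwa [← add_assoc]
  · have e : u + (j.val : ℝ) - 1 = u + ((j.val : ℝ) - 1) := by ring
    rw [e]
    refine freq_add (l := fun u => 𝓝[>] u) (Or.inr rfl) (hs'.mono fun v hv => ?_)
    have h1 := carried h w hv.1 (j - 1)
    rw [(pt_slot z v j).2, hv.2] at h1
    rwa [← add_sub_assoc]

/-- **XC at a slot, outside**, germ form: the two neighbours of the slot are read off the limit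
states, not (next one after, previous one before) -/
theorem xc_out_st (h : Irr U T) (w : W3 U T z L R) {u : ℝ} {s s' : St} (hs : s ∈ LS T z L R u)
    (hs' : s' ∈ RS T z L R u) (j : Fin 6) {p q : Fin 6 × Fin 6}
    (hpq : (p = s.1 (j + 1) ∧ q = s.1 (j - 1)) ∨ (p = s.1 (j + 1) ∧ q = s'.1 (j - 1)) ∨
      (p = s'.1 (j + 1) ∧ q = s'.1 (j - 1))) :
    ∃ i ∈ T (pt z (u + (j.val : ℝ))), offl p q i ∧ OutN U z (pt z (u + (j.val : ℝ))) i := by
  obtain ⟨a1, a2⟩ := LS_next h w hs j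
  obtain ⟨b1, b2⟩ := RS_next h w hs' j
  have key : ∃ i ∈ T (pt z (u + (j.val : ℝ))), i ∉ cset p ∧ i ∉ cset q ∧
      OutN U z (pt z (u + (j.val : ℝ))) i := by
    rcases hpq with ⟨rfl, rfl⟩ | ⟨rfl, rfl⟩ | ⟨rfl, rfl⟩
    · exact xc_out_before h a1 (nhds_of_left a2)
    · exact xc_out_before h a1 (nhds_of_right b2)
    · exact xc_out_after h (nhds_of_right b1) b2
  obtain ⟨i, hi, h1, h2, h3⟩ := key
  exact ⟨i, hi, offl_of h1 h2, h3⟩

/-- **XC at a slot, inside**, germ form: not (next one before, previous one after) -/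
theorem xc_inn_st (h : Irr U T) (w : W3 U T z L R) {u : ℝ} {s s' : St} (hs : s ∈ LS T z L R u)
    (hs' : s' ∈ RS T z L R u) (j : Fin 6) {p q : Fin 6 × Fin 6}
    (hpq : (p = s.1 (j + 1) ∧ q = s.1 (j - 1)) ∨ (p = s'.1 (j + 1) ∧ q = s.1 (j - 1)) ∨
      (p = s'.1 (j + 1) ∧ q = s'.1 (j - 1))) :
    ∃ i ∈ T (pt z (u + (j.val : ℝ))), offl p q i ∧ InnN U z (pt z (u + (j.val : ℝ))) i := by
  obtain ⟨a1, a2⟩ := LS_next h w hs j
  obtain ⟨b1, b2⟩ := RS_next h w hs' j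
  have key : ∃ i ∈ T (pt z (u + (j.val : ℝ))), i ∉ cset p ∧ i ∉ cset q ∧
      InnN U z (pt z (u + (j.val : ℝ))) i := by
    rcases hpq with ⟨rfl, rfl⟩ | ⟨rfl, rfl⟩ | ⟨rfl, rfl⟩
    · exact xc_inn_before h (nhds_of_left a1) a2
    · exact xc_inn_after h b1 (nhds_of_left a2)
    · exact xc_inn_after h b1 (nhds_of_right b2)
  obtain ⟨i, hi, h1, h2, h3⟩ := key
  exact ⟨i, hi, offl_of h1 h2, h3⟩

/-- generic states are valid -/
theorem ok_st (h : Irr U T) (w : W3 U T z L R) {v : ℝ} (hv : v ∈ WinData.G T z L R) :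
    OkSt (WinData.st T z L R v) := by
  refine ⟨fun i => w.len v i, fun j => ?_⟩
  obtain ⟨h1, h1', h2, h3, h4⟩ := w.col_spec hv.1 j
  obtain ⟨h5, h5', -, -, -⟩ := w.col_spec hv.1 (j + 1)
  have hd := dj_sixty h (hv.1 j)
  rw [← (pt_slot z v j).1] at hd
  have hd' := Set.disjoint_left.1 hd
  have n1 := hd' h1
  have n2 := hd' h1'
  exact ⟨h2, h3, h4, fun e => n1 (e ▸ h5), fun e => n1 (e ▸ h5'), fun e => n2 (e ▸ h5),
    fun e => n2 (e ▸ h5')⟩

theorem LS_ok (h : Irr U T) (w : W3 U T z L R) {u : ℝ} {s : St} (hs : s ∈ LS T z L R u) :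
    OkSt s := by
  have hs' : ∃ᶠ v in 𝓝[<] u, v ∈ WinData.G T z L R ∧ WinData.st T z L R v = s := hs
  obtain ⟨v, hv, rfl⟩ := hs'.exists
  exact ok_st h w hv

theorem RS_ok (h : Irr U T) (w : W3 U T z L R) {u : ℝ} {s : St} (hs : s ∈ RS T z L R u) :
    OkSt s := by
  have hs' : ∃ᶠ v in 𝓝[>] u, v ∈ WinData.G T z L R ∧ WinData.st T z L R v = s := hs
  obtain ⟨v, hv, rfl⟩ := hs'.exists
  exact ok_st h w hv

/-- the meaning of `onw` at a time whose rays carry no window end -/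
theorem onw_iff (w : W3 U T z L R) {t : ℝ} (ht : t ∉ WinData.M L R) {i : Fin 6} (j : ℤ) :
    onw (wn L R t i) (j : ZMod 6) ↔
      ∃ n : ℤ, L i + 6 * n ≤ t + 3 / 2 + j ∧ t + 3 / 2 + j ≤ R i + 6 * n := by
  have hLR := w.le i
  have h0 : sc t (L i) ≤ sc t (R i) := Int.floor_le_floor (by linarith)
  have key : ∀ n : ℤ, (L i + 6 * n ≤ t + 3 / 2 + j ∧ t + 3 / 2 + j ≤ R i + 6 * n) ↔
      (sc t (L i) + 6 * n < j ∧ j ≤ sc t (R i) + 6 * n) := by
    intro n
    have h1 : sc t (L i) + 6 * n < j ↔ L i + 6 * n ≤ t + 3 / 2 + j := by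
      rw [← sc_int, sc_lt]
      constructor
      · exact fun h => h.le
      · intro h
        refine lt_of_le_of_ne h fun he => ht ⟨i, j - 6 * n, Or.inl ?_⟩
        push_cast
        linarith
    have h2 : j ≤ sc t (R i) + 6 * n ↔ t + 3 / 2 + j ≤ R i + 6 * n := by
      rw [← sc_int, le_sc]
    rw [h1, h2]
  have e0 : ∀ n : ℤ, ((j : ZMod 6) - (sc t (L i) : ZMod 6) - 1) =
      (((j - (sc t (L i) + 6 * n) - 1 : ℤ)) : ZMod 6) := by
    intro n
    push_cast
    have : (6 : ZMod 6) = 0 := by decide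
    rw [this]
    ring
  have hl := w.len t i
  have hlen : ((wn L R t i).2 : ℤ) = sc t (R i) - sc t (L i) := by
    show (((sc t (R i) - sc t (L i)).toNat : ℕ) : ℤ) = _
    rw [Int.toNat_of_nonneg (by omega)]
  constructor
  · intro h
    unfold onw at h
    obtain ⟨m, hm0, hm6⟩ : ∃ m : ℤ, 0 ≤ j - (sc t (L i) + 6 * m) - 1 ∧
        j - (sc t (L i) + 6 * m) - 1 < 6 := by
      refine ⟨(j - sc t (L i) - 1) / 6, ?_, ?_⟩
      · have h1 := Int.emod_nonneg (j - sc t (L i) - 1) (show (6 : ℤ) ≠ 0 by norm_num)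
        have h2 := Int.emod_add_mul_ediv (j - sc t (L i) - 1) 6
        linarith
      · have h1 := Int.emod_lt_of_pos (j - sc t (L i) - 1) (show (0 : ℤ) < 6 by norm_num)
        have h2 := Int.emod_add_mul_ediv (j - sc t (L i) - 1) 6
        linarith
    refine ⟨m, (key m).2 ⟨by linarith, ?_⟩⟩
    have e1 : ((j : ZMod 6) - (wn L R t i).1 - 1) =
      (((j - (sc t (L i) + 6 * m) - 1 : ℤ)) : ZMod 6) := e0 m
    rw [e1, zval_of_int _ (by linarith) (by linarith)] at h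
    have h' : ((j - (sc t (L i) + 6 * m) - 1).toNat : ℤ) + 1 ≤ ((wn L R t i).2 : ℤ) := by
      exact_mod_cast h
    rw [Int.toNat_of_nonneg (by linarith), hlen] at h'
    linarith
  · rintro ⟨n, hn⟩
    obtain ⟨h1, h2⟩ := (key n).1 hn
    unfold onw
    have hl' : ((wn L R t i).2 : ℤ) ≤ 3 := by exact_mod_cast hl
    rw [hlen] at hl'
    have e1 : ((j : ZMod 6) - (wn L R t i).1 - 1) =
      (((j - (sc t (L i) + 6 * n) - 1 : ℤ)) : ZMod 6) := e0 n
    rw [e1, zval_of_int _ (by linarith) (by linarith)]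
    have h' : ((j - (sc t (L i) + 6 * n) - 1).toNat : ℤ) + 1 ≤ ((wn L R t i).2 : ℤ) := by
      rw [Int.toNat_of_nonneg (by linarith), hlen]
      linarith
    exact_mod_cast h'

/-- at a generic time every ray is inside a window -/
theorem cov_st (w : W3 U T z L R) {t : ℝ} (ht : t ∉ WinData.M L R) :
    CovSt (WinData.st T z L R t) := by
  intro j
  obtain ⟨i, n, h1, h2⟩ := w.cover (t + 3 / 2 + ((j.val : ℤ) : ℝ))
  refine ⟨i, ?_⟩
  have h3 := (onw_iff w ht (i := i) (j.val : ℤ)).2 ⟨n, h1, h2⟩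
  have e : (((j.val : ℤ)) : ZMod 6) = (j.val : ZMod 6) := by push_cast; rfl
  rw [e] at h3
  exact h3

theorem LS_cov (w : W3 U T z L R) {u : ℝ} {s : St} (hs : s ∈ LS T z L R u) : CovSt s := by
  have hs' : ∃ᶠ v in 𝓝[<] u, v ∈ WinData.G T z L R ∧ WinData.st T z L R v = s := hs
  obtain ⟨v, hv, rfl⟩ := hs'.exists
  exact cov_st w hv.2

theorem RS_cov (w : W3 U T z L R) {u : ℝ} {s : St} (hs : s ∈ RS T z L R u) : CovSt s := by
  have hs' : ∃ᶠ v in 𝓝[>] u, v ∈ WinData.G T z L R ∧ WinData.st T z L R v = s := hs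
  obtain ⟨v, hv, rfl⟩ := hs'.exists
  exact cov_st w hv.2

/-- a colour outside near the slot is behind it -/
theorem outc_hd (w : W3 U T z L R) {u : ℝ} {j i : Fin 6}
    (ho : OutN U z (pt z (u + (j.val : ℝ))) i) :
    outc (wn L R u i) (wr L R u i) (j.val : ZMod 6) := by
  obtain ⟨n, h1, h2⟩ := w.outH i _ ho
  have h3 := (outc_iff (i := i) (w.le i) u (j.val : ℤ)).2 ⟨n, by push_cast; linarith,
    by push_cast; linarith⟩
  simpa using h3

/-- a colour inside near the slot is in front of it -/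
theorem innc_hd (w : W3 U T z L R) {u : ℝ} {j i : Fin 6}
    (ho : InnN U z (pt z (u + (j.val : ℝ))) i) :
    innc (wn L R u i) (wr L R u i) (j.val : ZMod 6) := by
  obtain ⟨n, h1, h2⟩ := w.innH i _ ho
  have h3 := (innc_iff (i := i) (w.le i) u (j.val : ℤ)).2 ⟨n, by push_cast; linarith,
    by push_cast; linarith⟩
  simpa using h3

/-- **The XC relation.** -/
theorem xc_rel_hd (h : Irr U T) (w : W3 U T z L R) {Sd : Fin 6 → Prop} {u : ℝ} {s s' : St}
    (hs : s ∈ LS T z L R u) (hs' : s' ∈ RS T z L R u) : XCRel Sd s s' := by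
  have e1 := WinData.LS_win hs
  have e2 := WinData.RS_win hs'
  have ho : ∀ (j : Fin 6) {p q : Fin 6 × Fin 6},
      (∃ i ∈ T (pt z (u + (j.val : ℝ))), offl p q i ∧ OutN U z (pt z (u + (j.val : ℝ))) i) →
      ∃ i, offl p q i ∧ (Sd i → outc (s.2 i) (s'.2 i) (j.val : ZMod 6)) := by
    rintro j p q ⟨i, -, h1, h2⟩
    refine ⟨i, h1, fun hi => ?_⟩
    rw [e1, e2]
    exact outc_hd w h2
  have hi : ∀ (j : Fin 6) {p q : Fin 6 × Fin 6},
      (∃ i ∈ T (pt z (u + (j.val : ℝ))), offl p q i ∧ InnN U z (pt z (u + (j.val : ℝ))) i) →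
      ∃ i, offl p q i ∧ (Sd i → innc (s.2 i) (s'.2 i) (j.val : ZMod 6)) := by
    rintro j p q ⟨i, -, h1, h2⟩
    refine ⟨i, h1, fun hi => ?_⟩
    rw [e1, e2]
    exact innc_hd w h2
  intro j
  exact ⟨⟨ho j (xc_out_st h w hs hs' j (Or.inl ⟨rfl, rfl⟩)),
      ho j (xc_out_st h w hs hs' j (Or.inr (Or.inl ⟨rfl, rfl⟩))),
      ho j (xc_out_st h w hs hs' j (Or.inr (Or.inr ⟨rfl, rfl⟩)))⟩,
    ⟨hi j (xc_inn_st h w hs hs' j (Or.inl ⟨rfl, rfl⟩)),
      hi j (xc_inn_st h w hs hs' j (Or.inr (Or.inl ⟨rfl, rfl⟩))),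
      hi j (xc_inn_st h w hs hs' j (Or.inr (Or.inr ⟨rfl, rfl⟩)))⟩⟩

theorem step_all_hd (h : Irr U T) (w : W3 U T z L R) {Sd : Fin 6 → Prop} {u : ℝ} {s s' : St}
    (hs : s ∈ LS T z L R u) (hs' : s' ∈ RS T z L R u) :
    Step Sd s s' ∧ ((s'.2 = s.2) ↔ u ∉ WinData.M L R) := by
  have e1 := WinData.LS_win hs
  have e2 := WinData.RS_win hs'
  refine ⟨⟨LS_ok h w hs, RS_ok h w hs', fun i => ?_, xc_rel_hd h w hs hs'⟩, ?_⟩
  · rw [e1, e2]
    exact win_step (w.le i) u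
  · rw [e1, e2]
    exact win_same_iff w.le

end

section

open Vale.Agent.P032.H728
open Vale.Agent.P032.H158 (OkSt Step XCRel WStep)

variable {U : Fin 6 → Set ℂ} {T : ℂ → Set (Fin 6)} {z : ℂ} {L R : Fin 6 → ℝ}

/-- at a time without a window end on a ray every ray is inside a window -/
theorem cov_wn (w : W3 U T z L R) {t : ℝ} (ht : t ∉ WinData.M L R) : Cov (wn L R t) := by
  intro k
  obtain ⟨i, n, h1, h2⟩ := w.cover (t + 3 / 2 + (k.val : ℝ))
  have g1 : L i + 6 * n ≠ t + 3 / 2 + (k.val : ℝ) := by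
    intro he
    refine ht ⟨i, (k.val : ℤ) - 6 * n, Or.inl ?_⟩
    push_cast
    linarith
  have g1' : L i + 6 * n < t + 3 / 2 + (k.val : ℝ) := lt_of_le_of_ne h1 g1
  have e1 : sc t (L i) + 6 * n < (k.val : ℤ) := by
    rw [← sc_int, sc_lt]
    push_cast
    linarith
  have e2 : (k.val : ℤ) ≤ sc t (R i) + 6 * n := by
    rw [← sc_int, le_sc]
    push_cast
    linarith
  refine ⟨i, ?_⟩
  have hl := w.len t i
  have h3 : sc t (L i) ≤ sc t (R i) := w.sc_le (w.le i)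
  have hw : wn L R t i = ((sc t (L i) : ZMod 6), (sc t (R i) - sc t (L i)).toNat) := rfl
  rw [hw] at hl ⊢
  have hl' : (sc t (R i) - sc t (L i)).toNat ≤ 3 := hl
  have e0 : k - 1 - ((sc t (L i) : ℤ) : ZMod 6) =
      (((k.val : ℤ) - 1 - (sc t (L i) + 6 * n) : ℤ) : ZMod 6) := by
    push_cast
    have h6 : (6 : ZMod 6) = 0 := by decide
    rw [h6, ZMod.natCast_zmod_val]
    ring
  show (k - 1 - ((sc t (L i) : ℤ) : ZMod 6)).val < (sc t (R i) - sc t (L i)).toNat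
  rw [e0, zval_of_int _ (by omega) (by omega)]
  omega

/-- **The counted form** over the limit states: `A g c` is an invariant of the column `g` and the
crossed ends `c`, for a generic start `a`. -/
theorem false_of_run (h : Irr U T) (w : W3 U T z L R) {a : ℝ} (ha : a ∈ WinData.G T z L R)
    {A : Cl → Cn → Prop} (init : A (WinData.col T z L R a) (fun _ => (false, false)))
    (step : ∀ u ∈ Ioo a (a + 1), ∀ g c g' c', A g c → leC c c' →
      (g, mvW (wn L R a) c) ∈ LS T z L R u → (g', mvW (wn L R a) c') ∈ RS T z L R u → A g' c')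
    (fin : ¬ A (H429.shift (WinData.st T z L R a)).1 (fun _ => (true, true))) : False := by
  have hbG : a + 1 ∈ WinData.G T z L R := WinData.G_turn ha
  -- near a generic time the ends do not cross
  have hcr : ∀ u ∈ WinData.G T z L R, ∀ᶠ v in 𝓝 u, H728.cr L R a v = H728.cr L R a u := by
    intro u hu
    have h1 : ∀ i, ∀ᶠ v in 𝓝 u, sc v (L i) = sc u (L i) ∧ sc v (R i) = sc u (R i) := by
      intro i
      have hL : ∀ n : ℤ, L i ≠ u + 3 / 2 + n := fun n hn => hu.2 ⟨i, n, Or.inl hn⟩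
      have hR : ∀ n : ℤ, R i ≠ u + 3 / 2 + n := fun n hn => hu.2 ⟨i, n, Or.inr hn⟩
      exact (WinData.sc_const hL).and (WinData.sc_const hR)
    filter_upwards [eventually_all.2 h1] with v hv
    funext i
    unfold H728.cr
    rw [(hv i).1, (hv i).2]
  -- a generic time just before `a + 1`
  have hst := (WinData.st_const hbG).and (hcr _ hbG)
  obtain ⟨δ, hδ, hb⟩ := Metric.eventually_nhds_iff.1 hst
  obtain ⟨v, hvG, hv1, hv2⟩ : ∃ v ∈ WinData.G T z L R, max a (a + 1 - δ) < v ∧ v < a + 1 := by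
    obtain ⟨v, h1, h2⟩ := (WinData.G_dense h z L R).exists_mem_open
      (isOpen_Ioo (a := max a (a + 1 - δ)) (b := a + 1))
      (nonempty_Ioo.2 (max_lt (by linarith) (by linarith)))
    exact ⟨v, h1, h2.1, h2.2⟩
  have hva : a < v := lt_of_le_of_lt (le_max_left _ _) hv1
  have hvδ : a + 1 - δ < v := lt_of_le_of_lt (le_max_right _ _) hv1
  have hsv := hb (y := v) (by rw [Real.dist_eq, abs_of_neg (by linarith)]; linarith)
  have key := H987.transport (ι := Unit) (M := fun _ => (∅ : Set ℝ)) (a := a) (b := a + 1)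
    (fun _ => by simp) (WinData.G_dense h z L R)
    (st := fun t => (WinData.st T z L R t, H728.cr L R a t))
    (fun u hu _ => ((WinData.st_const hu).and (hcr u hu)).mono fun _ hv _ =>
      Prod.ext hv.1 hv.2)
    (I := fun _ s => A s.1.1 s.2) ?_ ?_ v ⟨hva, hv2⟩ hvG
  · have e1 : (WinData.st T z L R v).1 = (H429.shift (WinData.st T z L R a)).1 := by
      rw [hsv.1, WinData.st_turn]
    have e2 : H728.cr L R a v = fun _ => (true, true) := by rw [hsv.2, cr_turn]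
    have key' : A (WinData.st T z L R v).1 (H728.cr L R a v) := key
    rw [e1, e2] at key'
    exact fin key'
  · have h1 : ∀ᶠ v in 𝓝[>] a, WinData.st T z L R v = WinData.st T z L R a ∧
        H728.cr L R a v = H728.cr L R a a :=
      mem_nhdsWithin_of_mem_nhds ((WinData.st_const ha).and (hcr a ha))
    filter_upwards [h1] with v hv _
    show A (WinData.st T z L R v).1 (H728.cr L R a v)
    rw [hv.1, hv.2, cr_self]
    exact init
  · intro u hu
    have n1 : ∀ᶠ v in 𝓝[<] u, a < v := mem_nhdsWithin_of_mem_nhds (Ioi_mem_nhds hu.1)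
    have n2 : ∀ᶠ v in 𝓝[>] u, v < a + 1 := mem_nhdsWithin_of_mem_nhds (Iio_mem_nhds hu.2)
    filter_upwards [WinData.ev_LS T z L R u, n1, self_mem_nhdsWithin] with v hv hv1 hv2 hvG
    filter_upwards [WinData.ev_RS T z L R u, n2, self_mem_nhdsWithin] with v' hv' hv1' hv2' hvG' n hI
    have hv2 : v < u := hv2
    have hv2' : u < v' := hv2'
    have hI' : A (WinData.st T z L R v).1 (H728.cr L R a v) := hI
    show A (WinData.st T z L R v').1 (H728.cr L R a v')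
    refine step u hu _ _ _ _ hI' (cr_mono L R hv1.le (by linarith) hv1'.le) ?_ ?_
    · rw [← wn_cr w.le hv1.le (by linarith)]
      exact hv hvG
    · rw [← wn_cr w.le (by linarith) hv1'.le]
      exact hv' hvG'

theorem okC_gen_hd (h : Irr U T) (w : W3 U T z L R) {Sd : Fin 6 → Prop}
    {E : St → St → Prop}
    (hE : ∀ u, ∀ s ∈ LS T z L R u, ∀ s' ∈ RS T z L R u, E s s') {v : ℝ}
    (hv : v ∈ WinData.G T z L R) : OkC Sd E (WinData.st T z L R v) := by
  obtain ⟨h1, h2⟩ := gen_LS_RS h hv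
  exact ⟨ok_st h w hv, cov_wn w hv.2, xc_rel_hd h w h1 h2, hE v _ h1 _ h2⟩

theorem stepC_hd (h : Irr U T) (w : W3 U T z L R) {Sd : Fin 6 → Prop}
    {E : St → St → Prop}
    (hE : ∀ u, ∀ s ∈ LS T z L R u, ∀ s' ∈ RS T z L R u, E s s') {u : ℝ} {s s' : St}
    (hs : s ∈ LS T z L R u) (hs' : s' ∈ RS T z L R u) : StepC Sd E s s' := by
  obtain ⟨h1, -⟩ := step_all_hd h w hs hs'
  refine ⟨?_, ?_, h1.win, h1.xc, hE u s hs s' hs'⟩
  · obtain ⟨v, hv, rfl⟩ := LS_gen hs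
    exact okC_gen_hd h w hE hv
  · obtain ⟨v, hv, rfl⟩ := RS_gen hs'
    exact okC_gen_hd h w hE hv

end

end Vale.Agent.P032.H259W
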