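import Vale.Agent.P032.H448.HDWin
import Vale.Agent.P032.H259W.W3

/-!
# P032: the honest directions are windows of length at most 180 degrees

`w3_of_hd` : if all colours are attached at a point of order six and every direction is honest for
some colour, then there are windows `W3`.  No colour has to occur in a palette of the circle.
-/

open Set Filter Topology Metric

noncomputable section

namespace Vale.Agent.P032.H259W

open Vale.Agent.P032.Six Vale.Agent.P032.Sweep Vale.Agent.P032.S5.H767 Vale.Agent.P032.S5.H122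
  Vale.Agent.P032.H429 Vale.Agent.P032.H187 Vale.Agent.P032.H158 Vale.Agent.P032.H266
  Vale.Agent.P032.H259 Vale.Agent.P032.H448

/-- a positive cosine in units of 60 degrees -/
theorem cos_pos_iff3 (x : ℝ) : 0 < Real.cos (x * (Real.pi / 3)) ↔
    ∃ n : ℤ, -3 / 2 < x + 6 * n ∧ x + 6 * n < 3 / 2 := by
  have hp := Real.pi_pos
  have key : ∀ n : ℤ, Real.cos (x * (Real.pi / 3)) = Real.cos ((x + 6 * n) * (Real.pi / 3)) := by
    intro n
    have e : (x + 6 * n) * (Real.pi / 3) = x * (Real.pi / 3) + n * (2 * Real.pi) := by ring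
    rw [e, Real.cos_add_int_mul_two_pi]
  constructor
  · intro h
    obtain ⟨m, hm0, hm6⟩ : ∃ m : ℤ, -3 / 2 ≤ x + 6 * m ∧ x + 6 * m < 9 / 2 := by
      refine ⟨-⌊(x + 3 / 2) / 6⌋, ?_, ?_⟩
      · have := Int.floor_le ((x + 3 / 2) / 6)
        push_cast
        linarith
      · have := Int.lt_floor_add_one ((x + 3 / 2) / 6)
        push_cast
        linarith
    rw [key m] at h
    by_cases hc : 3 / 2 ≤ x + 6 * m
    · exfalso
      refine absurd h (not_lt.2 (Real.cos_nonpos_of_pi_div_two_le_of_le ?_ ?_))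
      · nlinarith
      · nlinarith
    · push Not at hc
      refine ⟨m, lt_of_le_of_ne hm0 fun he => ?_, hc⟩
      rw [← he] at h
      have e : (-3 / 2 : ℝ) * (Real.pi / 3) = -(Real.pi / 2) := by ring
      rw [e, Real.cos_neg, Real.cos_pi_div_two] at h
      exact lt_irrefl _ h
  · rintro ⟨n, h1, h2⟩
    rw [key n]
    refine Real.cos_pos_of_mem_Ioo ⟨?_, ?_⟩
    · nlinarith
    · nlinarith

/-- an interval of at most a half turn with both ends strictly in front is in front -/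
theorem front3 {l r s : ℝ} (hlr : l ≤ r) (hr3 : r ≤ l + 3)
    (hl : 0 < Real.cos ((l - s) * (Real.pi / 3))) (hr : 0 < Real.cos ((r - s) * (Real.pi / 3))) :
    ∃ n : ℤ, s - 3 / 2 < l + 6 * n ∧ r + 6 * n < s + 3 / 2 := by
  obtain ⟨n, h1, h2⟩ := (cos_pos_iff3 _).1 hl
  obtain ⟨m, h3, h4⟩ := (cos_pos_iff3 _).1 hr
  refine ⟨n, by linarith, ?_⟩
  by_contra hcon
  push Not at hcon
  have h5 : (m : ℝ) < n := by linarith
  have h6 : (n : ℝ) - 1 < m := by linarith
  have h7 : m < n := by exact_mod_cast h5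
  have h8 : n - 1 < m := by exact_mod_cast h6
  omega

theorem back3 {l r s : ℝ} (hlr : l ≤ r) (hr3 : r ≤ l + 3)
    (hl : Real.cos ((l - s) * (Real.pi / 3)) < 0) (hr : Real.cos ((r - s) * (Real.pi / 3)) < 0) :
    ∃ n : ℤ, s + 3 / 2 < l + 6 * n ∧ r + 6 * n < s + 9 / 2 := by
  have e : ∀ x : ℝ, Real.cos ((x - s) * (Real.pi / 3)) < 0 →
      0 < Real.cos ((x - (s + 3)) * (Real.pi / 3)) := by
    intro x hx
    have e1 : (x - (s + 3)) * (Real.pi / 3) = (x - s) * (Real.pi / 3) - Real.pi := by ring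
    rw [e1, Real.cos_sub_pi]
    linarith
  obtain ⟨n, h1, h2⟩ := front3 hlr hr3 (e l hl) (e r hr)
  exact ⟨n, by linarith, by linarith⟩

/-- `cos` at the opposite direction -/
theorem cos_opp3 (x t : ℝ) : Real.cos ((x + 3 - t) * (Real.pi / 3)) =
    -Real.cos ((x - t) * (Real.pi / 3)) := by
  have e : (x + 3 - t) * (Real.pi / 3) = (x - t) * (Real.pi / 3) + Real.pi := by ring
  rw [e, Real.cos_add_pi]

/-- a zero of the cosine -/
theorem cos_zero3 {x : ℝ} (h : Real.cos (x * (Real.pi / 3)) = 0) :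
    ∃ k : ℤ, x = 3 / 2 + 3 * k := by
  obtain ⟨k, hk⟩ := Real.cos_eq_zero_iff.1 h
  refine ⟨k, ?_⟩
  have hpi : Real.pi ≠ 0 := Real.pi_ne_zero
  field_simp at hk
  linarith

variable {U : Fin 6 → Set ℂ} {T : ℂ → Set (Fin 6)} {z : ℂ} {i : Fin 6}

theorem exists_pt3 {y : ℂ} (h : dist y z = 1) : ∃ t : ℝ, pt z t = y := by
  obtain ⟨θ, hθ⟩ := exists_cis (u := y - z) (by rw [← dist_eq_norm]; exact h)
  refine ⟨θ / (Real.pi / 3), ?_⟩
  unfold pt
  rw [div_mul_cancel₀ _ (by positivity), ← hθ]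
  ring

/-- a centre of order six is in no set `U i` -/
theorem not_mem_six (h : Irr U T) (hz : ∀ i, i ∈ T z) (i : Fin 6) : z ∉ U i := by
  intro hi
  have hX : z ∉ XX U := fun hX => hX i hi
  have h1 : ∀ j, z ∈ U j := fun j => h.off z hX j (hz j)
  obtain ⟨j, hj⟩ := h.ne (z + 1)
  exact h.mx.free j z (h1 j) (z + 1) (h.sub _ hj) (by simp)

/-- every colour of a centre of order six occurs at a point of the circle -/
theorem exists_pt_six (h : Irr U T) (hz : ∀ i, i ∈ T z) (i : Fin 6) :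
    ∃ t : ℝ, OutN U z (pt z t) i ∨ InnN U z (pt z t) i := by
  by_contra hcon
  push Not at hcon
  refine not_mem_six h hz i (h.max i z fun y hy hd => ?_)
  obtain ⟨t, ht⟩ := exists_pt3 (z := z) (y := y) (by rw [dist_comm]; exact hd)
  rcases out_or_inn h.mx (i := i) (y := y) (z := z) hy with h1 | h1
  · exact (hcon t).1 (by rw [ht]; exact h1)
  · exact (hcon t).2 (by rw [ht]; exact h1)

/-- the honest directions of a colour lie in a closed half circle -/
theorem hd_half (h : Irr U T) (hz : ∀ i, i ∈ T z) (i : Fin 6) :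
    ∃ θ : ℝ, ∀ x ∈ HD U z i, 0 ≤ Real.cos ((x - θ) * (Real.pi / 3)) := by
  obtain ⟨t, ht | ht⟩ := exists_pt_six h hz i
  · refine ⟨t + 3, fun x hx => ?_⟩
    have h1 := (hx t).1 ht
    have e1 : (x - (t + 3)) * (Real.pi / 3) = (x - t) * (Real.pi / 3) - Real.pi := by ring
    rw [e1, Real.cos_sub_pi]
    linarith
  · exact ⟨t, fun x hx => (hx t).2 ht⟩

theorem cos_nonneg3 {x : ℝ} (h : 0 ≤ Real.cos (x * (Real.pi / 3))) :
    ∃ n : ℤ, -3 / 2 ≤ x + 6 * n ∧ x + 6 * n ≤ 3 / 2 := by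
  have e : (x + 3) * (Real.pi / 3) = x * (Real.pi / 3) + Real.pi := by ring
  obtain ⟨n, h1, h2⟩ := (cos_le_iff (x + 3)).1 (by rw [e, Real.cos_add_pi]; linarith)
  exact ⟨n, by linarith, by linarith⟩

/-- the hull of the honest directions -/
theorem hull3 (h : Irr U T) (hz : ∀ i, i ∈ T z) (hne : (HD U z i).Nonempty) :
    ∃ l r : ℝ, l ≤ r ∧ r ≤ l + 3 ∧ l ∈ HD U z i ∧ r ∈ HD U z i ∧
      ∀ s ∈ HD U z i, ∃ n : ℤ, l + 6 * n ≤ s ∧ s ≤ r + 6 * n := by
  obtain ⟨θ, hθ⟩ := hd_half h hz i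
  have hKc : IsCompact (HD U z i ∩ Icc (θ - 3 / 2) (θ + 3 / 2)) :=
    isCompact_Icc.inter_left hd_closed
  have hrep : ∀ s ∈ HD U z i, ∃ n : ℤ, s + 6 * n ∈ HD U z i ∩ Icc (θ - 3 / 2) (θ + 3 / 2) := by
    intro s hs
    obtain ⟨n, h1, h2⟩ := cos_nonneg3 (hθ s hs)
    exact ⟨n, (hd_int s n).2 hs, by linarith, by linarith⟩
  have hKne : (HD U z i ∩ Icc (θ - 3 / 2) (θ + 3 / 2)).Nonempty := by
    obtain ⟨s, hs⟩ := hne
    obtain ⟨n, hn⟩ := hrep s hs
    exact ⟨_, hn⟩
  obtain ⟨l, hlK, hl⟩ := hKc.exists_isLeast hKne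
  obtain ⟨r, hrK, hr⟩ := hKc.exists_isGreatest hKne
  refine ⟨l, r, hl hrK, by linarith [hlK.2.1, hrK.2.2], hlK.1, hrK.1, fun s hs => ?_⟩
  obtain ⟨n, hn⟩ := hrep s hs
  refine ⟨-n, ?_, ?_⟩
  · have := hl hn
    push_cast
    linarith
  · have := hr hn
    push_cast
    linarith

/-- the inner side of a window shorter than a half turn -/
theorem ahead {l r t : ℝ} (hr : r < l + 3)
    (hl1 : 0 ≤ Real.cos ((l - t) * (Real.pi / 3))) (hr1 : 0 ≤ Real.cos ((r - t) * (Real.pi / 3))) :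
    ∃ n : ℤ, t - 3 / 2 ≤ l + 6 * n ∧ r + 6 * n ≤ t + 3 / 2 := by
  have e : ∀ x : ℝ, 0 ≤ Real.cos ((x - t) * (Real.pi / 3)) →
      Real.cos ((x - (t + 3)) * (Real.pi / 3)) ≤ 0 := by
    intro x hx
    have e1 : (x - (t + 3)) * (Real.pi / 3) = (x - t) * (Real.pi / 3) - Real.pi := by ring
    rw [e1, Real.cos_sub_pi]
    linarith
  obtain ⟨n, h1, h2⟩ := behind hr (e _ hl1) (e _ hr1)
  exact ⟨n - 1, by push_cast; linarith, by push_cast; linarith⟩

/-- **the window of a colour** -/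
theorem win3 (h : Irr U T) (hz : ∀ i, i ∈ T z) (hne : (HD U z i).Nonempty) :
    ∃ l r : ℝ, l ≤ r ∧ r ≤ l + 3 ∧ l ∈ HD U z i ∧ r ∈ HD U z i ∧
      (∀ t, OutN U z (pt z t) i → ∃ n : ℤ, t + 3 / 2 ≤ l + 6 * n ∧ r + 6 * n ≤ t + 9 / 2) ∧
      (∀ t, InnN U z (pt z t) i → ∃ n : ℤ, t - 3 / 2 ≤ l + 6 * n ∧ r + 6 * n ≤ t + 3 / 2) ∧
      ((∀ s ∈ HD U z i, ∃ n : ℤ, l + 6 * n ≤ s ∧ s ≤ r + 6 * n) ∨
        ∀ s ∈ HD U z i, ∃ n : ℤ, s = l + 3 * n) := by
  obtain ⟨l, r, hlr, hr3, hl, hr, hm⟩ := hull3 h hz hne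
  rcases hr3.lt_or_eq with hlt | heq
  · exact ⟨l, r, hlr, hr3, hl, hr, fun t ht => behind hlt ((hl t).1 ht) ((hr t).1 ht),
      fun t ht => ahead hlt ((hl t).2 ht) ((hr t).2 ht), Or.inl hm⟩
  · subst heq
    have zero_of_out : ∀ t, OutN U z (pt z t) i →
        Real.cos ((l - t) * (Real.pi / 3)) = 0 := by
      intro t ht
      have h1 := (hl t).1 ht
      have h2 := (hr t).1 ht
      rw [cos_opp3] at h2
      linarith
    have zero_of_inn : ∀ t, InnN U z (pt z t) i →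
        Real.cos ((l - t) * (Real.pi / 3)) = 0 := by
      intro t ht
      have h1 := (hl t).2 ht
      have h2 := (hr t).2 ht
      rw [cos_opp3] at h2
      linarith
    by_cases hM : l + 3 / 2 ∈ HD U z i
    · refine ⟨l, l + 3, hlr, hr3, hl, hr, fun t ht => ?_, fun t ht => ?_, Or.inl hm⟩
      · obtain ⟨k, hk⟩ := cos_zero3 (zero_of_out t ht)
        obtain ⟨n, h1, h2⟩ := (cos_le_iff _).1 ((hM t).1 ht)
        have h3 : (0 : ℝ) < 1 + k + 2 * n := by linarith
        have h4 : (1 + k + 2 * n : ℝ) < 2 := by linarith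
        have h5 : (0 : ℤ) < 1 + k + 2 * n := by exact_mod_cast h3
        have h6 : 1 + k + 2 * n < 2 := by exact_mod_cast h4
        have h7 : k = -2 * n := by omega
        have h8 : (k : ℝ) = -2 * n := by rw [h7]; push_cast; ring
        exact ⟨n, by linarith, by linarith⟩
      · obtain ⟨k, hk⟩ := cos_zero3 (zero_of_inn t ht)
        obtain ⟨n, h1, h2⟩ := cos_nonneg3 ((hM t).2 ht)
        have h3 : (-1 : ℝ) < 1 + k + 2 * n := by linarith
        have h4 : (1 + k + 2 * n : ℝ) < 1 := by linarith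
        have h5 : (-1 : ℤ) < 1 + k + 2 * n := by exact_mod_cast h3
        have h6 : 1 + k + 2 * n < 1 := by exact_mod_cast h4
        have h7 : k = -1 - 2 * n := by omega
        have h8 : (k : ℝ) = -1 - 2 * n := by rw [h7]; push_cast; ring
        exact ⟨n, by linarith, by linarith⟩
    · refine ⟨l, l, le_rfl, by linarith, hl, hl,
        fun t ht => behind (by linarith) ((hl t).1 ht) ((hl t).1 ht),
        fun t ht => ahead (by linarith) ((hl t).2 ht) ((hl t).2 ht), Or.inr fun s hs => ?_⟩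
      obtain ⟨m, hm1, hm2⟩ := hm s hs
      have hs0 : s + 6 * ((-m : ℤ) : ℝ) ∈ HD U z i := (hd_int s (-m)).2 hs
      push_cast at hs0
      by_contra hcon
      push Not at hcon
      have hn1 : l < s - 6 * m := lt_of_le_of_ne (by linarith) fun he => hcon (2 * m) (by
        push_cast; linarith)
      have hn2 : s - 6 * m < l + 3 := lt_of_le_of_ne (by linarith) fun he => hcon (2 * m + 1) (by
        push_cast; linarith)
      apply hM
      intro t
      constructor
      · intro ho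
        by_contra hc
        push Not at hc
        obtain ⟨k, hk⟩ := cos_zero3 (zero_of_out t ho)
        obtain ⟨n, h1, h2⟩ := (cos_pos_iff3 _).1 hc
        have h3 : (-1 : ℝ) < 1 + k + 2 * n := by linarith
        have h4 : (1 + k + 2 * n : ℝ) < 1 := by linarith
        have h5 : (-1 : ℤ) < 1 + k + 2 * n := by exact_mod_cast h3
        have h6 : 1 + k + 2 * n < 1 := by exact_mod_cast h4
        have h7 : k = -1 - 2 * n := by omega
        have h8 : (k : ℝ) = -1 - 2 * n := by rw [h7]; push_cast; ring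
        have h9 := (hs0 t).1 ho
        refine absurd ((cos_pos_iff3 _).2 ⟨n, ?_, ?_⟩) (not_lt.2 h9)
        · linarith
        · linarith
      · intro ho
        by_contra hc
        push Not at hc
        obtain ⟨k, hk⟩ := cos_zero3 (zero_of_inn t ho)
        have hc' : 0 < Real.cos ((l + 3 / 2 + 3 - t) * (Real.pi / 3)) := by
          rw [cos_opp3]; linarith
        obtain ⟨n, h1, h2⟩ := (cos_pos_iff3 _).1 hc'
        have h3 : (-1 : ℝ) < 2 + k + 2 * n := by linarith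
        have h4 : (2 + k + 2 * n : ℝ) < 1 := by linarith
        have h5 : (-1 : ℤ) < 2 + k + 2 * n := by exact_mod_cast h3
        have h6 : 2 + k + 2 * n < 1 := by exact_mod_cast h4
        have h7 : k = -2 - 2 * n := by omega
        have h8 : (k : ℝ) = -2 - 2 * n := by rw [h7]; push_cast; ring
        have h9 := (hs0 t).2 ho
        have h10 : 0 < Real.cos ((s + 6 * -(m : ℝ) + 3 - t) * (Real.pi / 3)) :=
          (cos_pos_iff3 _).2 ⟨n, by linarith, by linarith⟩
        rw [cos_opp3] at h10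
        linarith

/-- **Windows from the honest directions**, no condition on the letters. -/
theorem w3_of_hd (h : Irr U T) (hz : ∀ i, i ∈ T z) (hA : ∀ i, Att T z i)
    (hcov : ∀ s : ℝ, ∃ i, s ∈ HD U z i) : ∃ L R : Fin 6 → ℝ, W3 U T z L R := by
  have hne : ∀ i, (HD U z i).Nonempty := fun i => by
    obtain ⟨x, hx, -⟩ := hd_att h (hA i)
    exact ⟨x, hx⟩
  choose L R hlr hr3 hl hr ho hi hm using fun i => win3 (i := i) h hz (hne i)
  have hfront : ∀ i (s : ℝ), (∀ y ∈ HD U z i, 0 < Real.cos ((y - s) * (Real.pi / 3))) →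
      ∃ n : ℤ, s - 3 / 2 < L i + 6 * n ∧ R i + 6 * n < s + 3 / 2 := fun i s hs =>
    front3 (hlr i) (hr3 i) (hs _ (hl i)) (hs _ (hr i))
  have hback : ∀ i (s : ℝ), (∀ y ∈ HD U z i, Real.cos ((y - s) * (Real.pi / 3)) < 0) →
      ∃ n : ℤ, s + 3 / 2 < L i + 6 * n ∧ R i + 6 * n < s + 9 / 2 := fun i s hs =>
    back3 (hlr i) (hr3 i) (hs _ (hl i)) (hs _ (hr i))
  refine ⟨L, R, ⟨hlr, hr3, fun s => ?_, fun s hs x hx => ?_, fun s hs => ?_, fun s hs => ?_,
    fun i => ⟨hl i, hr i⟩, ho, hi⟩⟩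
  · by_contra hcon
    push Not at hcon
    -- no colour with a hull is honest at `s`
    have h1 : ∀ i, (∀ v ∈ HD U z i, ∃ n : ℤ, L i + 6 * n ≤ v ∧ v ≤ R i + 6 * n) →
        ∀ᶠ v in 𝓝 s, v ∉ HD U z i := by
      intro i hg
      refine hd_closed.isOpen_compl.mem_nhds fun hs => ?_
      obtain ⟨n, h2, h3⟩ := hg s hs
      exact absurd h3 (not_le.2 (hcon i n h2))
    have h2 : ∀ᶠ v in 𝓝 s, ∀ i, (∀ v ∈ HD U z i, ∃ n : ℤ, L i + 6 * n ≤ v ∧ v ≤ R i + 6 * n) →
        v ∉ HD U z i := by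
      refine eventually_all.2 fun i => ?_
      by_cases hg : ∀ v ∈ HD U z i, ∃ n : ℤ, L i + 6 * n ≤ v ∧ v ≤ R i + 6 * n
      · filter_upwards [h1 i hg] with v hv _
        exact hv
      · exact Eventually.of_forall fun v hv => absurd hv hg
    have h3 : (⋃ i : Fin 6, range fun n : ℤ => L i + 3 * (n : ℝ)).Countable :=
      countable_iUnion fun i => countable_range _
    obtain ⟨V, hV, hVo, hsV⟩ := _root_.eventually_nhds_iff.1 h2
    obtain ⟨v, hvV, hv⟩ := (h3.dense_compl ℝ).inter_open_nonempty V hVo ⟨s, hsV⟩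
    obtain ⟨i, hi'⟩ := hcov v
    rcases hm i with hg | hb
    · exact hV v hvV i hg hi'
    · obtain ⟨n, hn⟩ := hb v hi'
      exact hv (mem_iUnion.2 ⟨i, n, hn.symm⟩)
  · rcases side_hd h (hA x) hs hx with h1 | h1
    · exact Or.inl (hfront x s h1.2)
    · exact Or.inr (hback x s h1.2)
  · obtain ⟨x, hx, hf⟩ := exists_side_of259 h (freq_in259 (dist_pt z s))
    refine ⟨x, hx, ?_⟩
    rcases side_hd h (hA x) hs hx with h1 | h1
    · exact hfront x s h1.2
    · exact absurd (innN_of h hf) h1.1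
  · obtain ⟨x, hx, hf⟩ := exists_side_of259 h (freq_out259 (dist_pt z s))
    refine ⟨x, hx, ?_⟩
    rcases side_hd h (hA x) hs hx with h1 | h1
    · exact absurd (outN_of h hf) h1.1
    · exact hback x s h1.2

end Vale.Agent.P032.H259W
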